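import Mathlib

/-!
P048.  Cycle-complete Ramsey numbers: the Erdos-Faudree-Rousseau-Schelp bound for all `m ≥ n ≥ 3`
other than `(3,3)` and `(4,4)`, in every hereditary class of graphs with chromatic number at most
clique number plus one, and the exclusion of `K_{m-1}` from minimal counterexamples.
-/

namespace Vale.Agent.Results.P048.AllPairs

open SimpleGraph Finset

section

variable {V : Type} (G : SimpleGraph V)

/-- there is a path with `p + 1` vertices from `a` to `b` inside `F` -/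
def PathIn (p : ℕ) (a b : V) (F : Finset V) : Prop :=
  ∃ f : Fin (p + 1) → V, Function.Injective f ∧ f 0 = a ∧ f (Fin.last p) = b ∧
    (∀ i : Fin p, G.Adj (f i.castSucc) (f i.succ)) ∧ ∀ i, f i ∈ F

theorem path_ext [DecidableEq V] {p : ℕ} {a b z : V} {F : Finset V} (h : PathIn G p a b F)
    (hz : z ∉ F) (ha : G.Adj z a) : PathIn G (p + 1) z b (insert z F) := by
  obtain ⟨f, hf, h0, hl, hadj, hF⟩ := h
  refine ⟨Fin.cons z f, ?_, rfl, ?_, ?_, ?_⟩
  · rw [Fin.cons_injective_iff]
    exact ⟨by rintro ⟨i, hi⟩; exact hz (hi ▸ hF i), hf⟩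
  · rw [← Fin.succ_last, Fin.cons_succ, hl]
  · intro i
    refine Fin.cases ?_ (fun j => ?_) i
    · rw [Fin.castSucc_zero, Fin.cons_zero, Fin.cons_succ, h0]
      exact ha
    · rw [← Fin.succ_castSucc, Fin.cons_succ, Fin.cons_succ]
      exact hadj j
  · intro i
    refine Fin.cases ?_ (fun j => ?_) i
    · rw [Fin.cons_zero]; exact mem_insert_self _ _
    · rw [Fin.cons_succ]; exact mem_insert_of_mem (hF j)

theorem path_close {p : ℕ} {a b : V} {F : Finset V} (h : PathIn G (p + 1) a b F)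
    (hba : G.Adj b a) : (cycleGraph (p + 2)).IsContained G := by
  obtain ⟨f, hf, h0, hl, hadj, -⟩ := h
  have key : ∀ u : Fin (p + 2), G.Adj (f u) (f (u + 1)) := by
    intro u
    refine Fin.lastCases ?_ (fun i => ?_) u
    · rw [Fin.last_add_one, h0, hl]; exact hba
    · rw [Fin.coeSucc_eq_succ]; exact hadj i
  refine ⟨⟨⟨f, ?_⟩, hf⟩⟩
  intro u v huv
  rw [cycleGraph_adj] at huv
  rcases huv with h | h
  · have : u = v + 1 := by rw [← h]; abel
    rw [this]; exact (key v).symm
  · have : v = u + 1 := by rw [← h]; abel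
    rw [this]; exact key u

theorem path_clique {k : ℕ} (K : Finset V) (hK : G.IsClique K)
    (hc : K.card = k + 1) {a b : V} (ha : a ∈ K) (hb : b ∈ K) (hab : a ≠ b) :
    PathIn G k a b K := by
  have hk : 1 ≤ k := by
    have := one_lt_card.2 ⟨a, ha, b, hb, hab⟩
    omega
  obtain ⟨e, he0, hel⟩ : ∃ e : Fin (k + 1) ≃ K, (e 0 : V) = a ∧ (e (Fin.last k) : V) = b := by
    let e0 : Fin (k + 1) ≃ K := (K.equivFinOfCardEq hc).symm
    let e1 : Fin (k + 1) ≃ K := (Equiv.swap 0 (e0.symm ⟨a, ha⟩)).trans e0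
    have h1 : e1 0 = ⟨a, ha⟩ := by
      show e0 (Equiv.swap 0 (e0.symm ⟨a, ha⟩) 0) = _
      rw [Equiv.swap_apply_left, Equiv.apply_symm_apply]
    let e2 : Fin (k + 1) ≃ K := (Equiv.swap (Fin.last k) (e1.symm ⟨b, hb⟩)).trans e1
    refine ⟨e2, ?_, ?_⟩
    · have h2 : (0 : Fin (k + 1)) ≠ Fin.last k := by
        intro h
        have := congrArg Fin.val h
        simp at this
        omega
      have h3 : (0 : Fin (k + 1)) ≠ e1.symm ⟨b, hb⟩ := by
        intro h
        have : e1 0 = ⟨b, hb⟩ := by rw [h, Equiv.apply_symm_apply]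
        rw [h1] at this
        exact hab (congrArg Subtype.val this)
      show ((e1 (Equiv.swap (Fin.last k) (e1.symm ⟨b, hb⟩) 0) : K) : V) = a
      rw [Equiv.swap_apply_of_ne_of_ne h2 h3, h1]
    · show ((e1 (Equiv.swap (Fin.last k) (e1.symm ⟨b, hb⟩) (Fin.last k)) : K) : V) = b
      rw [Equiv.swap_apply_left, Equiv.apply_symm_apply]
  refine ⟨fun i => (e i : V), fun i j hij => e.injective (Subtype.ext hij), he0, hel,
    fun i => ?_, fun i => (e i).2⟩
  refine hK (e _).2 (e _).2 fun h => ?_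
  have h2 := e.injective (Subtype.ext h)
  exact (Fin.castSucc_lt_succ (i := i)).ne h2

/-- a clique with `k + 1` vertices and an outside vertex with two neighbours in it contain a cycle
of length `k + 2` -/
theorem insert_cycle [DecidableEq V] {k : ℕ} (K : Finset V) (hK : G.IsClique K)
    (hc : K.card = k + 1) {z a b : V} (hz : z ∉ K) (ha : a ∈ K) (hb : b ∈ K) (hab : a ≠ b)
    (za : G.Adj z a) (zb : G.Adj z b) : (cycleGraph (k + 2)).IsContained G :=
  path_close G (path_ext G (path_clique G K hK hc ha hb hab) hz za) zb.symm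

theorem outside [DecidableEq V] {m : ℕ} (hm : 3 ≤ m) (hC : ¬ (cycleGraph m).IsContained G)
    {L : Finset V} (hL : G.IsClique L) (hLc : L.card = m - 1) {z a b : V} (hz : z ∉ L)
    (ha : a ∈ L) (hb : b ∈ L) (hab : a ≠ b) (za : G.Adj z a) : ¬ G.Adj z b := by
  intro zb
  have := insert_cycle G (k := m - 2) L hL (by omega) hz ha hb hab za zb
  rw [show m - 2 + 2 = m by omega] at this
  exact hC this

/-- the step below the diagonal -/
theorem step [DecidableEq V] {m n : ℕ} (hm : 3 ≤ m) (hn : n + 1 < m)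
    {S L J : Finset V} (hLS : L ⊆ S) (hL : G.IsClique L) (hLc : L.card = m - 1)
    (hJ : J ⊆ S \ L) (hJi : G.IsIndepSet J) (hJc : J.card = n) :
    (cycleGraph m).IsContained G ∨ ∃ I : Finset V, I ⊆ S ∧ G.IsIndepSet I ∧ I.card = n + 1 := by
  classical
  by_cases hC : (cycleGraph m).IsContained G
  · exact Or.inl hC
  right
  have hNc : (J.biUnion fun i => L.filter fun v => G.Adj i v).card ≤ n := by
    refine card_biUnion_le.trans ?_
    rw [← hJc, card_eq_sum_ones]
    refine sum_le_sum fun i hi => ?_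
    rw [card_le_one]
    intro a ha b hb
    rw [mem_filter] at ha hb
    by_contra hab
    have hiL : i ∉ L := (mem_sdiff.1 (hJ hi)).2
    exact outside G hm hC hL hLc hiL ha.1 hb.1 hab ha.2 hb.2
  obtain ⟨k, hkL, hkN⟩ : ∃ k ∈ L, k ∉ J.biUnion fun i => L.filter fun v => G.Adj i v := by
    by_contra hcon
    push Not at hcon
    have := card_le_card (show L ⊆ _ from fun x hx => hcon x hx)
    omega
  have hadj : ∀ i ∈ J, ¬ G.Adj i k := by
    intro i hi hik
    exact hkN (mem_biUnion.2 ⟨i, hi, mem_filter.2 ⟨hkL, hik⟩⟩)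
  have hkJ : k ∉ J := fun hk => (mem_sdiff.1 (hJ hk)).2 hkL
  refine ⟨insert k J, ?_, ?_, ?_⟩
  · intro x hx
    rcases mem_insert.1 hx with rfl | hx
    · exact hLS hkL
    · exact (mem_sdiff.1 (hJ hx)).1
  · intro a ha b hb hab
    rw [mem_coe, mem_insert] at ha hb
    rcases ha with rfl | ha
    · rcases hb with rfl | hb
      · exact absurd rfl hab
      · exact fun h => hadj b hb h.symm
    · rcases hb with rfl | hb
      · exact hadj a ha
      · exact hJi ha hb hab
  · rw [card_insert_of_notMem hkJ, hJc]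

/-- the step on the diagonal -/
theorem step_diag [DecidableEq V] {m : ℕ} (hm : 5 ≤ m)
    {S L J : Finset V} (hLS : L ⊆ S) (hL : G.IsClique L) (hLc : L.card = m - 1)
    (hJ : J ⊆ S \ L) (hJi : G.IsIndepSet J) (hJc : J.card = m - 1)
    (hS : (m - 1) * (m - 2) + 1 ≤ (S \ L).card) :
    (cycleGraph m).IsContained G ∨ ∃ I : Finset V, I ⊆ S ∧ G.IsIndepSet I ∧ I.card = m := by
  classical
  by_contra hcon
  have hC : ¬ (cycleGraph m).IsContained G := fun h => hcon (Or.inl h)
  have hI : ∀ I : Finset V, I ⊆ S → G.IsIndepSet I → I.card ≠ m :=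
    fun I h1 h2 h3 => hcon (Or.inr ⟨I, h1, h2, h3⟩)
  have hJL : ∀ j ∈ J, j ∉ L := fun j hj => (mem_sdiff.1 (hJ hj)).2
  have hJS : ∀ j ∈ J, j ∈ S := fun j hj => (mem_sdiff.1 (hJ hj)).1
  have ins : ∀ z ∈ S, z ∉ J → ∃ j ∈ J, G.Adj z j := by
    intro z hzS hzJ
    by_contra hno
    push Not at hno
    refine hI (insert z J) ?_ ?_ ?_
    · intro x hx
      rcases mem_insert.1 hx with rfl | hx
      · exact hzS
      · exact hJS x hx
    · intro a ha b hb hab
      rw [mem_coe, mem_insert] at ha hb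
      rcases ha with rfl | ha
      · rcases hb with rfl | hb
        · exact absurd rfl hab
        · exact hno b hb
      · rcases hb with rfl | hb
        · exact fun h => hno a ha h.symm
        · exact hJi ha hb hab
    · rw [card_insert_of_notMem hzJ, hJc]; omega
  have two : ∀ j₀ ∈ J, ∀ u ∈ S, ∀ w ∈ S, u ∉ J → w ∉ J → u ≠ w → ¬ G.Adj u w →
      (∀ j ∈ J, j ≠ j₀ → ¬ G.Adj u j) → (∀ j ∈ J, j ≠ j₀ → ¬ G.Adj w j) → False := by
    intro j₀ hj₀ u huS w hwS huJ hwJ huw hnuw hu hw
    refine hI (insert u (insert w (J.erase j₀))) ?_ ?_ ?_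
    · intro x hx
      rcases mem_insert.1 hx with rfl | hx
      · exact huS
      rcases mem_insert.1 hx with rfl | hx
      · exact hwS
      · exact hJS x (mem_erase.1 hx).2
    · intro a ha b hb hab
      rw [mem_coe, mem_insert, mem_insert, mem_erase] at ha hb
      rcases ha with rfl | rfl | ha
      · rcases hb with rfl | rfl | hb
        · exact absurd rfl hab
        · exact hnuw
        · exact hu b hb.2 hb.1
      · rcases hb with rfl | rfl | hb
        · exact fun h => hnuw h.symm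
        · exact absurd rfl hab
        · exact hw b hb.2 hb.1
      · rcases hb with rfl | rfl | hb
        · exact fun h => hu a ha.2 ha.1 h.symm
        · exact fun h => hw a ha.2 ha.1 h.symm
        · exact hJi ha.2 hb.2 hab
    · have h1 : w ∉ J.erase j₀ := fun h => hwJ (mem_erase.1 h).2
      have h2 : u ∉ insert w (J.erase j₀) := by
        intro h
        rcases mem_insert.1 h with h | h
        · exact huw h
        · exact huJ (mem_erase.1 h).2
      rw [card_insert_of_notMem h2, card_insert_of_notMem h1, card_erase_of_mem hj₀, hJc]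
      omega
  have hex : ∀ l ∈ L, ∃ j ∈ J, G.Adj l j := fun l hl => ins l (hLS hl) fun h => hJL l h hl
  choose! x hxJ hxa using hex
  have hxL : ∀ l ∈ L, x l ∉ L := fun l hl => hJL _ (hxJ l hl)
  have hinj : Set.InjOn x L := by
    intro l hl l' hl' hll
    by_contra hne
    exact outside G (by omega) hC hL hLc (hxL l hl) hl hl' hne (hxa l hl).symm
      (hll ▸ (hxa l' hl').symm)
  have himg : L.image x = J := by
    refine eq_of_subset_of_card_le (fun y hy => ?_) ?_
    · obtain ⟨l, hl, rfl⟩ := mem_image.1 hy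
      exact hxJ l hl
    · rw [card_image_of_injOn hinj, hLc, hJc]
  have far : ∀ l ∈ L, ∀ l' ∈ L, l ≠ l' → ∀ v, v ∉ L → G.Adj v (x l) → ¬ G.Adj v (x l') := by
    intro l hl l' hl' hne v hv h1 h2
    obtain ⟨K, hK1, hK2, hKc⟩ := Finset.exists_subsuperset_card_eq
      (show ({l, l'} : Finset V) ⊆ L by
        intro y hy
        rcases mem_insert.1 hy with rfl | hy
        · exact hl
        · rw [mem_singleton.1 hy]; exact hl')
      (show ({l, l'} : Finset V).card ≤ m - 3 by rw [card_pair hne]; omega)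
      (show m - 3 ≤ L.card by omega)
    have hKl : G.IsClique K := fun a ha b hb hab => hL (hK2 ha) (hK2 hb) hab
    have p0 := path_clique G (k := m - 4) K hKl (by omega) (hK1 (by simp)) (hK1 (by simp)) hne
    have hxx : x l ≠ x l' := fun h => hne (hinj hl hl' h)
    have p1 := path_ext G p0 (z := x l) (fun h => hxL l hl (hK2 h)) (hxa l hl).symm
    have p2 := path_ext G p1 (z := v) (by
      intro h
      rcases mem_insert.1 h with h | h
      · exact h1.ne h
      · exact hv (hK2 h)) h1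
    have p3 := path_ext G p2 (z := x l') (by
      intro h
      rcases mem_insert.1 h with h | h
      · exact h2.ne h.symm
      rcases mem_insert.1 h with h | h
      · exact hxx h.symm
      · exact hxL l' hl' (hK2 h)) h2.symm
    have p4 := path_close G p3 (hxa l' hl')
    rw [show m - 4 + 1 + 1 + 2 = m by omega] at p4
    exact hC p4
  have far' : ∀ l ∈ L, ∀ v, v ∉ L → G.Adj v (x l) → ∀ j ∈ J, j ≠ x l → ¬ G.Adj v j := by
    intro l hl v hv h1 j hj hne
    rw [← himg] at hj
    obtain ⟨l', hl', rfl⟩ := mem_image.1 hj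
    exact far l hl l' hl' (fun h => hne (by rw [h])) v hv h1
  let B : V → Finset V := fun l => (S \ L).filter fun v => v = x l ∨ G.Adj v (x l)
  obtain ⟨l, hl, hBl⟩ : ∃ l ∈ L, m - 1 ≤ (B l).card := by
    by_contra hno
    push Not at hno
    have hcov : S \ L ⊆ L.biUnion B := by
      intro v hv
      obtain ⟨hvS, hvL⟩ := mem_sdiff.1 hv
      by_cases hvJ : v ∈ J
      · rw [← himg] at hvJ
        obtain ⟨l, hl, rfl⟩ := mem_image.1 hvJ
        exact mem_biUnion.2 ⟨l, hl, mem_filter.2 ⟨hv, Or.inl rfl⟩⟩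
      · obtain ⟨j, hj, hvj⟩ := ins v hvS hvJ
        rw [← himg] at hj
        obtain ⟨l, hl, rfl⟩ := mem_image.1 hj
        exact mem_biUnion.2 ⟨l, hl, mem_filter.2 ⟨hv, Or.inr hvj⟩⟩
    have h1 : (S \ L).card ≤ (m - 1) * (m - 2) := by
      calc (S \ L).card ≤ (L.biUnion B).card := card_le_card hcov
        _ ≤ ∑ l ∈ L, (B l).card := card_biUnion_le
        _ ≤ ∑ _l ∈ L, (m - 2) := sum_le_sum fun l hl => by have := hno l hl; omega
        _ = (m - 1) * (m - 2) := by rw [sum_const, smul_eq_mul, hLc]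
    omega
  have hBL : ∀ v ∈ B l, v ∉ L := fun v hv => (mem_sdiff.1 (mem_filter.1 hv).1).2
  have hBS : ∀ v ∈ B l, v ∈ S := fun v hv => (mem_sdiff.1 (mem_filter.1 hv).1).1
  have hBa : ∀ v ∈ B l, v ≠ x l → G.Adj v (x l) :=
    fun v hv hne => (mem_filter.1 hv).2.resolve_left hne
  have hBJ : ∀ v ∈ B l, v ≠ x l → v ∉ J :=
    fun v hv hne hvJ => hJi hvJ (hxJ l hl) hne (hBa v hv hne)
  have hBK : G.IsClique (B l : Set V) := by
    intro v hv w hw hvw
    have hv' : v ∈ B l := hv
    have hw' : w ∈ B l := hw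
    by_cases h1 : v = x l
    · rw [h1]
      exact (hBa w hw' (fun h => hvw (h1.trans h.symm))).symm
    by_cases h2 : w = x l
    · rw [h2]
      exact hBa v hv' h1
    by_contra hna
    exact two (x l) (hxJ l hl) v (hBS v hv') w (hBS w hw') (hBJ v hv' h1) (hBJ w hw' h2) hvw hna
      (far' l hl v (hBL v hv') (hBa v hv' h1)) (far' l hl w (hBL w hw') (hBa w hw' h2))
  obtain ⟨v, hvB, hvx⟩ : ∃ v ∈ B l, v ≠ x l := by
    obtain ⟨a, ha, b, hb, hab⟩ := one_lt_card.1 (show 1 < (B l).card by omega)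
    by_cases h : a = x l
    · exact ⟨b, hb, fun h' => hab (h.trans h'.symm)⟩
    · exact ⟨a, ha, h⟩
  have hxB : x l ∈ B l :=
    mem_filter.2 ⟨hJ (hxJ l hl), Or.inl rfl⟩
  by_cases hlv : G.Adj l v
  · obtain ⟨K, hK1, hK2, hKc⟩ := Finset.exists_subsuperset_card_eq
      (show ({x l, v} : Finset V) ⊆ B l by
        intro y hy
        rcases mem_insert.1 hy with rfl | hy
        · exact hxB
        · rw [mem_singleton.1 hy]; exact hvB)
      (show ({x l, v} : Finset V).card ≤ m - 1 by rw [card_pair hvx.symm]; omega) hBl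
    have hKl : G.IsClique K := fun a ha b hb hab => hBK (hK2 ha) (hK2 hb) hab
    exact outside G (by omega) hC hKl hKc (fun h => hBL l (hK2 h) hl) (hK1 (by simp))
      (hK1 (by simp)) hvx.symm (hxa l hl) hlv
  · refine two (x l) (hxJ l hl) v (hBS v hvB) l (hLS hl) (hBJ v hvB hvx)
      (fun h => hJL l h hl) (fun h => hBL v hvB (h ▸ hl)) (fun h => hlv h.symm)
      (far' l hl v (hBL v hvB) (hBa v hvB hvx)) ?_
    intro j hj hne hlj
    rw [← himg] at hj
    obtain ⟨l', hl', rfl⟩ := mem_image.1 hj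
    exact outside G (by omega) hC hL hLc (hxL l' hl') hl hl' (fun h => hne (by rw [h])) hlj.symm
      (hxa l' hl').symm

/-- both steps together -/
theorem step_all [DecidableEq V] {m n : ℕ} (hm : 3 ≤ m) (hn : n + 1 ≤ m) (hd : n + 1 < m ∨ 5 ≤ m)
    {S L J : Finset V} (hLS : L ⊆ S) (hL : G.IsClique L) (hLc : L.card = m - 1)
    (hJ : J ⊆ S \ L) (hJi : G.IsIndepSet J) (hJc : J.card = n)
    (hS : (m - 1) * n + 1 ≤ S.card) :
    (cycleGraph m).IsContained G ∨ ∃ I : Finset V, I ⊆ S ∧ G.IsIndepSet I ∧ I.card = n + 1 := by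
  rcases Nat.lt_or_ge (n + 1) m with h | h
  · exact step G hm h hLS hL hLc hJ hJi hJc
  · have h5 : 5 ≤ m := by omega
    have hn' : n = m - 1 := by omega
    subst hn'
    have hS' : (m - 1) * (m - 2) + 1 ≤ (S \ L).card := by
      rw [card_sdiff_of_subset hLS, hLc]
      obtain ⟨r, rfl⟩ : ∃ r, m = r + 2 := ⟨m - 2, by omega⟩
      simp only [show r + 2 - 1 = r + 1 by omega, show r + 2 - 2 = r by omega] at hS ⊢
      have : (r + 1) * (r + 1) = (r + 1) * r + (r + 1) := by ring
      omega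
    have := step_diag G h5 hLS hL hLc hJ hJi hJc hS'
    rwa [show m - 1 + 1 = m by omega]

theorem aux (m : ℕ) (hm : 3 ≤ m)
    (h : ∀ S : Finset V, ∃ I K : Finset V, I ⊆ S ∧ K ⊆ S ∧ G.IsIndepSet I ∧ G.IsClique K ∧
      S.card ≤ I.card * (K.card + 1)) :
    ∀ n : ℕ, n + 1 ≤ m → (n + 1 < m ∨ 5 ≤ m) → ∀ S : Finset V, (m - 1) * n + 1 ≤ S.card →
      (cycleGraph m).IsContained G ∨ ∃ I : Finset V, I ⊆ S ∧ G.IsIndepSet I ∧ I.card = n + 1 := by
  classical
  intro n
  induction n with
  | zero =>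
    intro _ _ S hS
    right
    have : 0 < S.card := by omega
    obtain ⟨v, hv⟩ := Finset.card_pos.1 this
    refine ⟨{v}, by simpa using hv, ?_, by simp⟩
    intro a ha b hb hab
    simp only [coe_singleton, Set.mem_singleton_iff] at ha hb
    exact absurd (ha.trans hb.symm) hab
  | succ n ih =>
    intro hn hd S hS
    obtain ⟨I, K, hIS, hKS, hI, hK, hIK⟩ := h S
    by_cases hIc : n + 2 ≤ I.card
    · right
      obtain ⟨J, hJ, hJc⟩ := Finset.exists_subset_card_eq hIc
      exact ⟨J, hJ.trans hIS, fun a ha b hb hab => hI (hJ ha) (hJ hb) hab, hJc⟩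
    have hKc : m - 1 ≤ K.card := by
      by_contra hcon
      push Not at hcon hIc
      have h1 : I.card * (K.card + 1) ≤ (n + 1) * (m - 1) :=
        Nat.mul_le_mul (by omega) (by omega)
      have h2 : (m - 1) * (n + 1) + 1 ≤ (n + 1) * (m - 1) := hS.trans (hIK.trans h1)
      rw [Nat.mul_comm] at h2
      omega
    obtain ⟨L, hLK, hLc⟩ := Finset.exists_subset_card_eq hKc
    have hL : G.IsClique L := fun a ha b hb hab => hK (hLK ha) (hLK hb) hab
    have hLS : L ⊆ S := hLK.trans hKS
    have hS' : (m - 1) * n + 1 ≤ (S \ L).card := by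
      rw [card_sdiff_of_subset hLS, hLc]
      have : (m - 1) * (n + 1) = (m - 1) * n + (m - 1) := by ring
      omega
    rcases ih (by omega) (by omega) (S \ L) hS' with hC | ⟨J, hJ, hJi, hJc⟩
    · exact Or.inl hC
    exact step_all G hm hn hd hLS hL hLc hJ hJi hJc hS

/-- a colouring with `omega + 1` colours gives the counting property -/
theorem count_of_color (S K : Finset V)
    (hc : (G.induce (S : Set V)).Colorable (K.card + 1)) :
    ∃ I : Finset V, I ⊆ S ∧ G.IsIndepSet I ∧ S.card ≤ I.card * (K.card + 1) := by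
  classical
  obtain ⟨c⟩ := hc
  let F : Fin (K.card + 1) → Finset V := fun i =>
    S.filter fun v => ∃ hv : v ∈ S, c ⟨v, hv⟩ = i
  obtain ⟨i, _, hi⟩ := Finset.exists_max_image (univ : Finset (Fin (K.card + 1)))
    (fun i => (F i).card) univ_nonempty
  refine ⟨F i, filter_subset _ _, ?_, ?_⟩
  · intro a ha b hb _ hadj
    obtain ⟨haS, hav, hai⟩ := mem_filter.1 (mem_coe.1 ha)
    obtain ⟨hbS, hbv, hbi⟩ := mem_filter.1 (mem_coe.1 hb)
    have h1 : (G.induce (S : Set V)).Adj ⟨a, hav⟩ ⟨b, hbv⟩ := hadj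
    exact c.valid h1 (hai.trans hbi.symm)
  · have h1 : S ⊆ (univ : Finset (Fin (K.card + 1))).biUnion F := by
      intro v hv
      exact mem_biUnion.2 ⟨c ⟨v, hv⟩, mem_univ _, mem_filter.2 ⟨hv, hv, rfl⟩⟩
    calc S.card ≤ ((univ : Finset (Fin (K.card + 1))).biUnion F).card := card_le_card h1
      _ ≤ ∑ j, (F j).card := card_biUnion_le
      _ ≤ ∑ _j : Fin (K.card + 1), (F i).card := sum_le_sum fun j hj => hi j hj
      _ = (F i).card * (K.card + 1) := by
        rw [sum_const, card_univ, Fintype.card_fin, smul_eq_mul, Nat.mul_comm]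

end

/-- Let `m ≥ n ≥ 3`, `(m, n)` neither `(3, 3)` nor `(4, 4)`, and let `G` be a graph with at least
`(m - 1)(n - 1) + 1` vertices.
(1) If every induced subgraph `G[S]` has a clique `K` and an independent set `I` with
`|S| ≤ |I| (|K| + 1)`, then `G` contains a cycle of length exactly `m` or an independent set with
`n` vertices.
(2) The same holds if every `G[S]` is `(|K| + 1)`-colourable for some clique `K` of `G[S]`.
(3) The same holds if `G` contains a clique with `m - 1` vertices and every graph with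
`(m - 1)(n - 2) + 1` vertices contains a cycle of length exactly `m` or an independent set with
`n - 1` vertices. -/
theorem result (m n : ℕ) (hn : 3 ≤ n) (hnm : n ≤ m) (hm : n < m ∨ 5 ≤ m) (V : Type) [Fintype V]
    (G : SimpleGraph V) (hV : (m - 1) * (n - 1) + 1 ≤ Fintype.card V) :
    ((∀ S : Finset V, ∃ I K : Finset V, I ⊆ S ∧ K ⊆ S ∧ G.IsIndepSet I ∧ G.IsClique K ∧
        S.card ≤ I.card * (K.card + 1)) →
      (cycleGraph m).IsContained G ∨ ∃ I : Finset V, G.IsIndepSet I ∧ I.card = n) ∧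
    ((∀ S : Finset V, ∃ K : Finset V, K ⊆ S ∧ G.IsClique K ∧
        (G.induce (S : Set V)).Colorable (K.card + 1)) →
      (cycleGraph m).IsContained G ∨ ∃ I : Finset V, G.IsIndepSet I ∧ I.card = n) ∧
    ((∃ L : Finset V, G.IsClique L ∧ L.card = m - 1) →
      (∀ H : SimpleGraph (Fin ((m - 1) * (n - 2) + 1)), (cycleGraph m).IsContained H ∨
        ∃ I : Finset (Fin ((m - 1) * (n - 2) + 1)), H.IsIndepSet I ∧ I.card = n - 1) →
      (cycleGraph m).IsContained G ∨ ∃ I : Finset V, G.IsIndepSet I ∧ I.card = n) := by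
  classical
  have main : (∀ S : Finset V, ∃ I K : Finset V, I ⊆ S ∧ K ⊆ S ∧ G.IsIndepSet I ∧ G.IsClique K ∧
        S.card ≤ I.card * (K.card + 1)) →
      (cycleGraph m).IsContained G ∨ ∃ I : Finset V, G.IsIndepSet I ∧ I.card = n := by
    intro h
    rcases aux G m (by omega) h (n - 1) (by omega) (by omega) Finset.univ
      (by rwa [Finset.card_univ]) with h1 | ⟨I, _, hI, hc⟩
    · exact Or.inl h1
    · exact Or.inr ⟨I, hI, by omega⟩
  refine ⟨main, fun h => main fun S => ?_, ?_⟩
  · obtain ⟨K, hKS, hK, hc⟩ := h S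
    obtain ⟨I, hIS, hI, hle⟩ := count_of_color G S K hc
    exact ⟨I, K, hIS, hKS, hI, hK, hle⟩
  · rintro ⟨L, hL, hLc⟩ hH
    have hLS : L ⊆ (Finset.univ : Finset V) := subset_univ L
    have hS' : (m - 1) * (n - 2) + 1 ≤ (Finset.univ \ L).card := by
      rw [card_sdiff_of_subset hLS, hLc, Finset.card_univ]
      have : (m - 1) * (n - 1) = (m - 1) * (n - 2) + (m - 1) := by
        rw [show n - 1 = (n - 2) + 1 by omega]; ring
      omega
    obtain ⟨T, hT, hTc⟩ := Finset.exists_subset_card_eq hS'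
    let φ : Fin ((m - 1) * (n - 2) + 1) ↪ V :=
      ((T.equivFinOfCardEq hTc).symm.toEmbedding).trans (Function.Embedding.subtype _)
    have hφ : ∀ i, φ i ∈ T := fun i => ((T.equivFinOfCardEq hTc).symm i).2
    rcases hH (G.comap φ) with h1 | ⟨I, hI, hIc⟩
    · exact Or.inl (h1.trans ⟨(SimpleGraph.Embedding.comap φ G).toCopy⟩)
    · have hJ : I.map φ ⊆ Finset.univ \ L := by
        intro y hy
        obtain ⟨i, _, rfl⟩ := mem_map.1 hy
        exact hT (hφ i)
      have hJi : G.IsIndepSet ((I.map φ : Finset V) : Set V) := by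
        intro a ha b hb hab
        obtain ⟨i, hi, rfl⟩ := mem_map.1 (mem_coe.1 ha)
        obtain ⟨j, hj, rfl⟩ := mem_map.1 (mem_coe.1 hb)
        exact hI hi hj (fun h => hab (by rw [h]))
      rcases step_all G (m := m) (n := n - 1) (by omega) (by omega) (by omega) hLS hL hLc hJ hJi
        (by rw [card_map, hIc]) (by rwa [Finset.card_univ]) with h1 | ⟨I', _, hI', hc'⟩
      · exact Or.inl h1
      · exact Or.inr ⟨I', hI', by omega⟩

end Vale.Agent.Results.P048.AllPairs
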