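import Mathlib

/-!
P048.  Cycle-complete Ramsey numbers: the Erdos-Faudree-Rousseau-Schelp bound for all `m > n >= 3`
in every hereditary class of graphs with chromatic number at most clique number plus one.
-/

namespace Vale.Agent.Results.P048.NearPerfect

open SimpleGraph Finset

section

variable {V : Type} [DecidableEq V] (G : SimpleGraph V)

omit [DecidableEq V] in
/-- a clique with `k + 1` vertices and an outside vertex with two neighbours in it contain a cycle
of length `k + 2` -/
theorem insert_cycle {k : ℕ} (hk : 1 ≤ k) (K : Finset V) (hK : G.IsClique K)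
    (hc : K.card = k + 1) {z a b : V} (hz : z ∉ K) (ha : a ∈ K) (hb : b ∈ K) (hab : a ≠ b)
    (za : G.Adj z a) (zb : G.Adj z b) : (cycleGraph (k + 2)).IsContained G := by
  obtain ⟨e, he0, hel⟩ : ∃ e : Fin (k + 1) ≃ K, (e 0 : V) = a ∧ (e (Fin.last k) : V) = b := by
    let e0 : Fin (k + 1) ≃ K := (K.equivFinOfCardEq hc).symm
    let e1 : Fin (k + 1) ≃ K := (Equiv.swap 0 (e0.symm ⟨a, ha⟩)).trans e0
    have h1 : e1 0 = ⟨a, ha⟩ := by
      show e0 (Equiv.swap 0 (e0.symm ⟨a, ha⟩) 0) = _
      rw [Equiv.swap_apply_left, Equiv.apply_symm_apply]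
    let e2 : Fin (k + 1) ≃ K := (Equiv.swap (Fin.last k) (e1.symm ⟨b, hb⟩)).trans e1
    refine ⟨e2, ?_, ?_⟩
    · have h2 : (0 : Fin (k + 1)) ≠ Fin.last k := by
        intro h
        have := congrArg Fin.val h
        simp at this
        omega
      have h3 : (0 : Fin (k + 1)) ≠ e1.symm ⟨b, hb⟩ := by
        intro h
        have : e1 0 = ⟨b, hb⟩ := by rw [h, Equiv.apply_symm_apply]
        rw [h1] at this
        exact hab (congrArg Subtype.val this)
      show ((e1 (Equiv.swap (Fin.last k) (e1.symm ⟨b, hb⟩) 0) : K) : V) = a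
      rw [Equiv.swap_apply_of_ne_of_ne h2 h3, h1]
    · show ((e1 (Equiv.swap (Fin.last k) (e1.symm ⟨b, hb⟩) (Fin.last k)) : K) : V) = b
      rw [Equiv.swap_apply_left, Equiv.apply_symm_apply]
  set f : Fin (k + 2) → V := Fin.cons z (fun j : Fin (k + 1) => ((e j : K) : V)) with hf
  have hinj : Function.Injective f := by
    rw [hf, Fin.cons_injective_iff]
    refine ⟨?_, fun i j hij => e.injective (Subtype.ext hij)⟩
    rintro ⟨j, hj⟩
    exact hz (hj ▸ (e j).2)
  have key : ∀ u : Fin (k + 2), G.Adj (f u) (f (u + 1)) := by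
    intro u
    refine Fin.cases ?_ (fun j => ?_) u
    · have h1 : (0 : Fin (k + 2)) + 1 = Fin.succ 0 := by simp
      rw [h1]
      show G.Adj z (e 0 : V)
      rw [he0]; exact za
    · refine Fin.lastCases ?_ (fun i => ?_) j
      · have h1 : (Fin.last k).succ + 1 = (0 : Fin (k + 2)) := by
          rw [Fin.succ_last]; exact Fin.last_add_one _
        rw [h1]
        show G.Adj (e (Fin.last k) : V) z
        rw [hel]; exact zb.symm
      · have h1 : (Fin.castSucc i).succ + 1 = (Fin.succ (Fin.succ i) : Fin (k + 2)) := by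
          rw [Fin.succ_castSucc, Fin.coeSucc_eq_succ]
        rw [h1]
        show G.Adj (e (Fin.castSucc i) : V) (e (Fin.succ i) : V)
        refine hK (e _).2 (e _).2 fun h => ?_
        have h2 := e.injective (Subtype.ext h)
        exact (Fin.castSucc_lt_succ (i := i)).ne h2
  refine ⟨⟨⟨f, ?_⟩, hinj⟩⟩
  intro u v huv
  rw [cycleGraph_adj] at huv
  rcases huv with h | h
  · have : u = v + 1 := by rw [← h]; abel
    rw [this]; exact (key v).symm
  · have : v = u + 1 := by rw [← h]; abel
    rw [this]; exact key u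

theorem aux (m : ℕ) (hm : 3 ≤ m)
    (h : ∀ S : Finset V, ∃ I K : Finset V, I ⊆ S ∧ K ⊆ S ∧ G.IsIndepSet I ∧ G.IsClique K ∧
      S.card ≤ I.card * (K.card + 1)) :
    ∀ n : ℕ, n + 1 < m → ∀ S : Finset V, (m - 1) * n + 1 ≤ S.card →
      (cycleGraph m).IsContained G ∨ ∃ I : Finset V, I ⊆ S ∧ G.IsIndepSet I ∧ I.card = n + 1 := by
  classical
  intro n
  induction n with
  | zero =>
    intro _ S hS
    right
    have : 0 < S.card := by omega
    obtain ⟨v, hv⟩ := Finset.card_pos.1 this
    refine ⟨{v}, by simpa using hv, ?_, by simp⟩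
    intro a ha b hb hab
    simp only [coe_singleton, Set.mem_singleton_iff] at ha hb
    exact absurd (ha.trans hb.symm) hab
  | succ n ih =>
    intro hn S hS
    obtain ⟨I, K, hIS, hKS, hI, hK, hIK⟩ := h S
    by_cases hIc : n + 2 ≤ I.card
    · right
      obtain ⟨J, hJ, hJc⟩ := Finset.exists_subset_card_eq hIc
      exact ⟨J, hJ.trans hIS, fun a ha b hb hab => hI (hJ ha) (hJ hb) hab, hJc⟩
    have hKc : m - 1 ≤ K.card := by
      by_contra hcon
      push Not at hcon hIc
      have h1 : I.card * (K.card + 1) ≤ (n + 1) * (m - 1) :=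
        Nat.mul_le_mul (by omega) (by omega)
      have h2 : (m - 1) * (n + 1) + 1 ≤ (n + 1) * (m - 1) := hS.trans (hIK.trans h1)
      rw [Nat.mul_comm] at h2
      omega
    obtain ⟨L, hLK, hLc⟩ := Finset.exists_subset_card_eq hKc
    have hL : G.IsClique L := fun a ha b hb hab => hK (hLK ha) (hLK hb) hab
    have hLS : L ⊆ S := hLK.trans hKS
    by_cases hz : ∃ z, z ∉ L ∧ ∃ a ∈ L, ∃ b ∈ L, a ≠ b ∧ G.Adj z a ∧ G.Adj z b
    · left
      obtain ⟨z, hzL, a, ha, b, hb, hab, za, zb⟩ := hz
      have := insert_cycle G (k := m - 2) (by omega) L hL (by omega) hzL ha hb hab za zb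
      rwa [show m - 2 + 2 = m by omega] at this
    push Not at hz
    have hS' : (m - 1) * n + 1 ≤ (S \ L).card := by
      rw [card_sdiff_of_subset hLS, hLc]
      have : (m - 1) * (n + 1) = (m - 1) * n + (m - 1) := by ring
      omega
    rcases ih (by omega) (S \ L) hS' with hC | ⟨J, hJ, hJi, hJc⟩
    · exact Or.inl hC
    right
    have hNc : (J.biUnion fun i => L.filter fun v => G.Adj i v).card ≤ n + 1 := by
      refine card_biUnion_le.trans ?_
      rw [← hJc, card_eq_sum_ones]
      refine sum_le_sum fun i hi => ?_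
      rw [card_le_one]
      intro a ha b hb
      rw [mem_filter] at ha hb
      by_contra hab
      have hiL : i ∉ L := (mem_sdiff.1 (hJ hi)).2
      exact hz i hiL a ha.1 b hb.1 hab ha.2 hb.2
    obtain ⟨k, hkL, hkN⟩ : ∃ k ∈ L, k ∉ J.biUnion fun i => L.filter fun v => G.Adj i v := by
      by_contra hcon
      push Not at hcon
      have := card_le_card (show L ⊆ _ from fun x hx => hcon x hx)
      omega
    have hadj : ∀ i ∈ J, ¬ G.Adj i k := by
      intro i hi hik
      exact hkN (mem_biUnion.2 ⟨i, hi, mem_filter.2 ⟨hkL, hik⟩⟩)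
    have hkJ : k ∉ J := fun hk => (mem_sdiff.1 (hJ hk)).2 hkL
    refine ⟨insert k J, ?_, ?_, ?_⟩
    · intro x hx
      rcases mem_insert.1 hx with rfl | hx
      · exact hLS hkL
      · exact (mem_sdiff.1 (hJ hx)).1
    · intro a ha b hb hab
      rw [mem_coe, mem_insert] at ha hb
      rcases ha with rfl | ha
      · rcases hb with rfl | hb
        · exact absurd rfl hab
        · exact fun h => hadj b hb h.symm
      · rcases hb with rfl | hb
        · exact hadj a ha
        · exact hJi ha hb hab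
    · rw [card_insert_of_notMem hkJ, hJc]

/-- a colouring with `omega + 1` colours gives the counting property -/
theorem count_of_color (S K : Finset V)
    (hc : (G.induce (S : Set V)).Colorable (K.card + 1)) :
    ∃ I : Finset V, I ⊆ S ∧ G.IsIndepSet I ∧ S.card ≤ I.card * (K.card + 1) := by
  classical
  obtain ⟨c⟩ := hc
  let F : Fin (K.card + 1) → Finset V := fun i =>
    S.filter fun v => ∃ hv : v ∈ S, c ⟨v, hv⟩ = i
  obtain ⟨i, _, hi⟩ := Finset.exists_max_image (univ : Finset (Fin (K.card + 1)))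
    (fun i => (F i).card) univ_nonempty
  refine ⟨F i, filter_subset _ _, ?_, ?_⟩
  · intro a ha b hb _ hadj
    obtain ⟨haS, hav, hai⟩ := mem_filter.1 (mem_coe.1 ha)
    obtain ⟨hbS, hbv, hbi⟩ := mem_filter.1 (mem_coe.1 hb)
    have h1 : (G.induce (S : Set V)).Adj ⟨a, hav⟩ ⟨b, hbv⟩ := hadj
    exact c.valid h1 (hai.trans hbi.symm)
  · have h1 : S ⊆ (univ : Finset (Fin (K.card + 1))).biUnion F := by
      intro v hv
      exact mem_biUnion.2 ⟨c ⟨v, hv⟩, mem_univ _, mem_filter.2 ⟨hv, hv, rfl⟩⟩
    calc S.card ≤ ((univ : Finset (Fin (K.card + 1))).biUnion F).card := card_le_card h1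
      _ ≤ ∑ j, (F j).card := card_biUnion_le
      _ ≤ ∑ _j : Fin (K.card + 1), (F i).card := sum_le_sum fun j hj => hi j hj
      _ = (F i).card * (K.card + 1) := by
        rw [sum_const, card_univ, Fintype.card_fin, smul_eq_mul, Nat.mul_comm]

end

/-- Let `m > n ≥ 3` and let `G` be a graph with at least `(m - 1)(n - 1) + 1` vertices such that
every induced subgraph `G[S]` has a clique `K` and an independent set `I` with
`|S| ≤ |I| (|K| + 1)` (for instance, is `(|K| + 1)`-colourable for some clique `K` of `G[S]`).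
Then `G` contains a cycle of length exactly `m` or an independent set with `n` vertices. -/
theorem result (m n : ℕ) (hn : 3 ≤ n) (hmn : n < m) (V : Type) [Fintype V]
    (G : SimpleGraph V) (hV : (m - 1) * (n - 1) + 1 ≤ Fintype.card V) :
    ((∀ S : Finset V, ∃ I K : Finset V, I ⊆ S ∧ K ⊆ S ∧ G.IsIndepSet I ∧ G.IsClique K ∧
        S.card ≤ I.card * (K.card + 1)) →
      (cycleGraph m).IsContained G ∨ ∃ I : Finset V, G.IsIndepSet I ∧ I.card = n) ∧
    ((∀ S : Finset V, ∃ K : Finset V, K ⊆ S ∧ G.IsClique K ∧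
        (G.induce (S : Set V)).Colorable (K.card + 1)) →
      (cycleGraph m).IsContained G ∨ ∃ I : Finset V, G.IsIndepSet I ∧ I.card = n) := by
  classical
  have main : (∀ S : Finset V, ∃ I K : Finset V, I ⊆ S ∧ K ⊆ S ∧ G.IsIndepSet I ∧ G.IsClique K ∧
        S.card ≤ I.card * (K.card + 1)) →
      (cycleGraph m).IsContained G ∨ ∃ I : Finset V, G.IsIndepSet I ∧ I.card = n := by
    intro h
    rcases aux G m (by omega) h (n - 1) (by omega) Finset.univ (by rwa [Finset.card_univ]) with
      h1 | ⟨I, _, hI, hc⟩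
    · exact Or.inl h1
    · exact Or.inr ⟨I, hI, by omega⟩
  refine ⟨main, fun h => main fun S => ?_⟩
  obtain ⟨K, hKS, hK, hc⟩ := h S
  obtain ⟨I, hIS, hI, hle⟩ := count_of_color G S K hc
  exact ⟨I, K, hIS, hKS, hI, hK, hle⟩

end Vale.Agent.Results.P048.NearPerfect
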